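/-
helper54 -- S0356 squad (track D), package SH: the shadow lemma in every dimension
(generalisation of helper28's S0355 packages Frame / Fubini / Shadow from `Fin 20` to `Fin (d+1)`,
then restated for `En n`, `0 < n`, as in helper28's Blueprint: `shadow_eq_sweep_gen`).
-/
import Crest.Agent.Helper28.S0356.Defs

set_option autoImplicit false
open MeasureTheory
open scoped ENNReal

namespace Crest.Agent.Helper54.S0356

open Crest.Agent.Helper28.S0355 (sweep)
open Crest.Agent.Helper28.S0356 (En)

/-- Euclidean `k`-space. -/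
abbrev E (k : ℕ) : Type := EuclideanSpace ℝ (Fin k)

variable {d : ℕ}

/-- an orthonormal basis whose first vector is a given unit vector -/
theorem exists_basis (u : E (d + 1)) (hu : ‖u‖ = 1) :
    ∃ b : OrthonormalBasis (Fin (d + 1)) ℝ (E (d + 1)), b 0 = u := by
  have hcard : Module.finrank ℝ (E (d + 1)) = Fintype.card (Fin (d + 1)) := by simp
  have hv : Orthonormal ℝ (({0} : Set (Fin (d + 1))).domRestrict (fun _ : Fin (d + 1) => u)) := by
    refine ⟨fun i => hu, fun i j hij => ?_⟩
    exfalso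
    apply hij
    apply Subtype.ext
    rw [i.2, j.2]
  obtain ⟨b, hb⟩ := Orthonormal.exists_orthonormalBasis_extension_of_card_eq hcard hv
  exact ⟨b, hb 0 rfl⟩

/-- splitting off the first coordinate, as a linear equivalence -/
noncomputable def splitL (d : ℕ) : E (d + 1) ≃ₗ[ℝ] ℝ × E d where
  toFun x := (x 0, WithLp.toLp 2 (fun i : Fin d => x i.succ))
  invFun p := WithLp.toLp 2 (Fin.cons p.1 (fun i : Fin d => p.2 i) : Fin (d + 1) → ℝ)
  map_add' x y := by
    ext <;> simp
  map_smul' c x := by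
    ext <;> simp
  left_inv x := by
    ext i
    refine Fin.cases ?_ (fun j => ?_) i <;> simp
  right_inv p := by
    ext <;> simp

theorem splitL_apply (x : E (d + 1)) :
    splitL d x = (x 0, WithLp.toLp 2 (fun i : Fin d => x i.succ)) := rfl

theorem splitL_eq :
    (⇑(splitL d) : E (d + 1) → ℝ × E d) =
      Prod.map id (WithLp.toLp 2) ∘ (MeasurableEquiv.piFinSuccAbove (fun _ : Fin (d + 1) => ℝ) 0) ∘
        (WithLp.ofLp : E (d + 1) → Fin (d + 1) → ℝ) := by
  funext x
  simp [splitL_apply, MeasurableEquiv.piFinSuccAbove, Fin.insertNthEquiv]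
  rfl

theorem splitL_measurePreserving :
    MeasurePreserving (⇑(splitL d) : E (d + 1) → ℝ × E d) volume volume := by
  rw [splitL_eq]
  have h1 : MeasurePreserving (WithLp.ofLp : E (d + 1) → Fin (d + 1) → ℝ) volume volume :=
    PiLp.volume_preserving_ofLp (Fin (d + 1))
  have h2 : MeasurePreserving (MeasurableEquiv.piFinSuccAbove (fun _ : Fin (d + 1) => ℝ) 0)
      volume volume :=
    volume_preserving_piFinSuccAbove (fun _ : Fin (d + 1) => ℝ) 0
  have h3 : MeasurePreserving (Prod.map (id : ℝ → ℝ) (WithLp.toLp 2 : (Fin d → ℝ) → E d))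
      (volume.prod volume) (volume.prod volume) :=
    (MeasurePreserving.id volume).prod (PiLp.volume_preserving_toLp (Fin d))
  exact h3.comp (h2.comp h1)

/-- the embedding of the hyperplane `x 0 = 0` -/
noncomputable def embL (d : ℕ) : E d →ₗᵢ[ℝ] E (d + 1) where
  toFun y := WithLp.toLp 2 (Fin.cons 0 (fun i : Fin d => y i) : Fin (d + 1) → ℝ)
  map_add' x y := by
    ext i
    refine Fin.cases ?_ (fun j => ?_) i <;> simp
  map_smul' c x := by
    ext i
    refine Fin.cases ?_ (fun j => ?_) i <;> simp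
  norm_map' y := by
    rw [EuclideanSpace.norm_eq, EuclideanSpace.norm_eq, Fin.sum_univ_succ]
    simp

theorem embL_apply (y : E d) :
    embL d y = WithLp.toLp 2 (Fin.cons 0 (fun i : Fin d => y i) : Fin (d + 1) → ℝ) := rfl

theorem exists_frame (u : E (d + 1)) (hu : ‖u‖ = 1) :
    ∃ (Θ : E (d + 1) ≃L[ℝ] ℝ × E d) (ι : E d →ₗᵢ[ℝ] E (d + 1)),
      MeasurePreserving (⇑Θ) volume volume ∧ Θ u = (1, 0) ∧
        ∀ x : E (d + 1), ι (Θ x).2 = x - inner ℝ x u • u := by
  obtain ⟨b, hb⟩ := exists_basis u hu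
  let R : E (d + 1) ≃ₗᵢ[ℝ] EuclideanSpace ℝ (Fin (d + 1)) := b.repr
  let Θ₀ : E (d + 1) ≃ₗ[ℝ] ℝ × E d := R.toLinearEquiv.trans (splitL d)
  refine ⟨Θ₀.toContinuousLinearEquiv, R.symm.toLinearIsometry.comp (embL d), ?_, ?_, ?_⟩
  · have hR : MeasurePreserving (⇑R) volume volume := R.measurePreserving
    exact splitL_measurePreserving.comp hR
  · have hRu : R u = EuclideanSpace.single 0 (1 : ℝ) := by
      rw [← hb]
      exact b.repr_self 0
    show splitL d (R u) = (1, 0)
    rw [hRu, splitL_apply]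
    ext
    · simp
    · simp
  · intro x
    show R.symm (embL d (splitL d (R x)).2) = x - inner ℝ x u • u
    have hx0 : (R x) 0 = inner ℝ x u := by
      show b.repr x 0 = inner ℝ x u
      rw [b.repr_apply_apply, hb, real_inner_comm]
    have hRu : R u = EuclideanSpace.single 0 (1 : ℝ) := by
      rw [← hb]
      exact b.repr_self 0
    have key : embL d (splitL d (R x)).2 = R (x - inner ℝ x u • u) := by
      rw [map_sub, map_smul, hRu, ← hx0, splitL_apply, embL_apply]
      ext i
      refine Fin.cases ?_ (fun j => ?_) i <;> simp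
    rw [key]
    exact R.symm_apply_apply _

/-- a compact order-connected nonempty subset of `ℝ` is a closed interval -/
theorem eq_Icc_of_compact_ordConnected {F : Set ℝ} (hc : IsCompact F) (ho : F.OrdConnected)
    (hne : F.Nonempty) : ∃ a b : ℝ, a ≤ b ∧ F = Set.Icc a b := by
  refine ⟨sInf F, sSup F, ?_, ?_⟩
  · obtain ⟨x, hx⟩ := hne
    exact (csInf_le hc.bddBelow hx).trans (le_csSup hc.bddAbove hx)
  · apply Set.Subset.antisymm
    · intro x hx
      exact ⟨csInf_le hc.bddBelow hx, le_csSup hc.bddAbove hx⟩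
    · exact ho.out (hc.sInf_mem hne) (hc.sSup_mem hne)

theorem sweep_fibre (D : Set (ℝ × E d)) (y : E d) :
    (fun s : ℝ => (s, y)) ⁻¹' (sweep D ((1 : ℝ), (0 : E d))) =
      {s : ℝ | ∃ t ∈ Set.Icc (0 : ℝ) 1, s - t ∈ (fun s : ℝ => (s, y)) ⁻¹' D} := by
  ext s
  simp only [sweep, Set.mem_preimage, Set.mem_ofPred_eq]
  have : ∀ t : ℝ, ((s, y) : ℝ × E d) - t • ((1 : ℝ), (0 : E d)) = (s - t, y) := by
    intro t
    ext1 <;> simp
  simp only [this]

theorem sweep_Icc (a b : ℝ) (hab : a ≤ b) :
    {s : ℝ | ∃ t ∈ Set.Icc (0 : ℝ) 1, s - t ∈ Set.Icc a b} = Set.Icc a (b + 1) := by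
  ext s
  simp only [Set.mem_ofPred_eq, Set.mem_Icc]
  constructor
  · rintro ⟨t, ⟨ht0, ht1⟩, h1, h2⟩
    exact ⟨by linarith, by linarith⟩
  · rintro ⟨h1, h2⟩
    refine ⟨max 0 (s - b), ⟨le_max_left _ _, max_le zero_le_one (by linarith)⟩, ?_, ?_⟩
    · rcases le_total 0 (s - b) with h | h
      · rw [max_eq_right h]; linarith
      · rw [max_eq_left h]; linarith
    · have := le_max_right 0 (s - b)
      linarith

theorem shadow_fubini (D : Set (ℝ × E d)) (hD : IsCompact D)
    (hfib : ∀ y : E d, Set.OrdConnected {s : ℝ | (s, y) ∈ D}) :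
    volume (sweep D ((1 : ℝ), (0 : E d))) = volume D + volume (Prod.snd '' D) := by
  have hDm : MeasurableSet D := hD.isClosed.measurableSet
  have hsw : sweep D ((1 : ℝ), (0 : E d)) =
      (fun q : (ℝ × E d) × ℝ => q.1 + q.2 • ((1 : ℝ), (0 : E d))) '' (D ×ˢ Set.Icc (0 : ℝ) 1) := by
    ext x
    simp only [sweep, Set.mem_ofPred_eq, Set.mem_image, Set.mem_prod, Prod.exists]
    constructor
    · rintro ⟨t, ht, hx⟩
      exact ⟨_, _, t, ⟨hx, ht⟩, by simp⟩
    · rintro ⟨a, b, t, ⟨hx, ht⟩, rfl⟩
      refine ⟨t, ht, ?_⟩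
      simpa using hx
  have hD'c : IsCompact (sweep D ((1 : ℝ), (0 : E d))) := by
    rw [hsw]
    apply (hD.prod isCompact_Icc).image
    fun_prop
  have hD'm : MeasurableSet (sweep D ((1 : ℝ), (0 : E d))) := hD'c.isClosed.measurableSet
  have hPc : IsCompact (Prod.snd '' D) := hD.image continuous_snd
  have hPm : MeasurableSet (Prod.snd '' D) := hPc.isClosed.measurableSet
  have hfibre : ∀ y : E d,
      volume ((fun s : ℝ => (s, y)) ⁻¹' (sweep D ((1 : ℝ), (0 : E d)))) =
        volume ((fun s : ℝ => (s, y)) ⁻¹' D) +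
          (Prod.snd '' D).indicator (fun _ => (1 : ℝ≥0∞)) y := by
    intro y
    by_cases hy : y ∈ Prod.snd '' D
    · rw [Set.indicator_of_mem hy]
      have hne : ((fun s : ℝ => (s, y)) ⁻¹' D).Nonempty := by
        obtain ⟨⟨s, y'⟩, hp, rfl⟩ := hy
        exact ⟨s, hp⟩
      have hcl : IsClosed ((fun s : ℝ => (s, y)) ⁻¹' D) :=
        hD.isClosed.preimage (by fun_prop)
      have hcomp : IsCompact ((fun s : ℝ => (s, y)) ⁻¹' D) := by
        apply (hD.image continuous_fst).of_isClosed_subset hcl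
        intro s hs
        exact ⟨(s, y), hs, rfl⟩
      obtain ⟨a, b, hab, hF⟩ := eq_Icc_of_compact_ordConnected hcomp (hfib y) hne
      rw [sweep_fibre, hF, sweep_Icc a b hab, Real.volume_Icc, Real.volume_Icc,
        ← ENNReal.ofReal_one, ← ENNReal.ofReal_add (by linarith) zero_le_one]
      congr 1
      ring
    · rw [Set.indicator_of_notMem hy, add_zero]
      have hemp : (fun s : ℝ => (s, y)) ⁻¹' D = ∅ := by
        ext s
        simp only [Set.mem_preimage, Set.mem_empty_iff_false, iff_false]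
        intro hs
        exact hy ⟨(s, y), hs, rfl⟩
      rw [sweep_fibre, hemp]
      simp
  rw [Measure.volume_eq_prod, Measure.prod_apply_symm hD'm, Measure.prod_apply_symm hDm]
  simp only [hfibre]
  rw [lintegral_add_right _ (measurable_const.indicator hPm), lintegral_indicator_const hPm, one_mul]

/-- **Shadow lemma in dimension `d + 1`.** For a compact convex `C` and a unit vector `u`,
`vol (C + [0,1]u) = vol C + vol_d (P_u C)`. -/
theorem shadow_eq_sweep (C : Set (E (d + 1))) (hC : IsCompact C) (hconv : Convex ℝ C)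
    (u : E (d + 1)) (hu : ‖u‖ = 1) :
    volume (sweep C u) =
      volume C + (μHE[d] : Measure (E (d + 1))) ((fun y => y - inner ℝ y u • u) '' C) := by
  obtain ⟨Θ, ι, hmp, hΘu, hι⟩ := exists_frame u hu
  set D : Set (ℝ × E d) := Θ '' C with hDdef
  have hD : IsCompact D := hC.image Θ.continuous
  have hDconv : Convex ℝ D := hconv.linear_image Θ.toLinearMap
  have hfib : ∀ y : E d, Set.OrdConnected {s : ℝ | (s, y) ∈ D} := by
    intro y
    apply Convex.ordConnected
    intro a ha b hb α β hα hβ hαβ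
    have h := hDconv ha hb hα hβ hαβ
    have e : α • ((a, y) : ℝ × E d) + β • ((b, y) : ℝ × E d) = (α • a + β • b, y) := by
      ext1
      · simp
      · simp only [Prod.snd_add, Prod.smul_snd]
        rw [← add_smul, hαβ, one_smul]
    rw [e] at h
    exact h
  have hlin : ∀ (x : E (d + 1)) (t : ℝ), Θ x - t • ((1 : ℝ), (0 : E d)) = Θ (x - t • u) := by
    intro x t
    rw [map_sub, map_smul, hΘu]
  have hsweep : sweep C u = Θ ⁻¹' (sweep D (1, 0)) := by
    ext x
    simp only [sweep, Set.mem_ofPred_eq, Set.mem_preimage]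
    constructor
    · rintro ⟨t, ht, hx⟩
      refine ⟨t, ht, ?_⟩
      rw [hlin]
      exact Set.mem_image_of_mem _ hx
    · rintro ⟨t, ht, hx⟩
      refine ⟨t, ht, ?_⟩
      rw [hlin] at hx
      obtain ⟨c, hc, hcx⟩ := hx
      rwa [← Θ.injective hcx]
  have hCD : C = Θ ⁻¹' D := by
    ext x
    constructor
    · intro hx
      exact Set.mem_image_of_mem _ hx
    · rintro ⟨c, hc, hcx⟩
      rwa [← Θ.injective hcx]
  let e : E (d + 1) ≃ᵐ ℝ × E d := Θ.toHomeomorph.toMeasurableEquiv
  have hmp' : MeasurePreserving e volume volume := hmp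
  have h1 : volume (sweep C u) = volume (sweep D ((1 : ℝ), (0 : E d))) := by
    rw [hsweep]
    exact hmp'.measure_preimage_equiv _
  have h2 : volume C = volume D := by
    conv_lhs => rw [hCD]
    exact hmp'.measure_preimage_equiv _
  have h3 : (μHE[d] : Measure (E (d + 1))) ((fun y => y - inner ℝ y u • u) '' C) =
      volume (Prod.snd '' D) := by
    have himg : (fun y => y - inner ℝ y u • u) '' C = ι '' (Prod.snd '' D) := by
      rw [hDdef, Set.image_image, Set.image_image]
      apply Set.image_congr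
      intro x _
      exact (hι x).symm
    rw [himg, ι.isometry.euclideanHausdorffMeasure_image,
      EuclideanSpace.euclideanHausdorffMeasure_eq_volume]
  rw [h1, h2, h3]
  exact shadow_fubini D hD hfib

/-- Package SH (Blueprint signature): the shadow lemma on `En n`, `0 < n`. -/
theorem shadow_eq_sweep_gen (n : ℕ) (hn : 0 < n) (C : Set (En n)) (hC : IsCompact C)
    (hconv : Convex ℝ C) (u : En n) (hu : ‖u‖ = 1) :
    volume (sweep C u) =
      volume C + (μHE[n - 1] : Measure (En n)) ((fun y => y - inner ℝ y u • u) '' C) := by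
  obtain ⟨d, rfl⟩ : ∃ d, n = d + 1 := ⟨n - 1, by omega⟩
  exact shadow_eq_sweep C hC hconv u hu

end Crest.Agent.Helper54.S0356
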